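import Vale.Agent.P198.G.Stm

/-! Linear local connectivity of the boundary. -/

open Set Metric Topology Filter

namespace Vale.Agent.P198

variable {G Z : Type*} [Group G] [MetricSpace Z] [MulAction G Z]

namespace GLlcAux

/-- uniform local path connectedness -/
theorem ulc [CompactSpace Z] [LocallyPathConnectedSpace Z] {ε : ℝ} (hε : 0 < ε) :
    ∃ δ : ℝ, 0 < δ ∧ ∀ a b : Z, dist a b < δ → JoinedIn (ball a ε) a b := by
  obtain ⟨δ, hδ, h⟩ := lebesgue_number_lemma_of_metric (s := (univ : Set Z))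
    (c := fun z : Z => pathComponentIn (ball z (ε / 2)) z) isCompact_univ
    (fun z => isOpen_ball.pathComponentIn z)
    (fun z _ => mem_iUnion.2 ⟨z, mem_pathComponentIn_self (mem_ball_self (half_pos hε))⟩)
  refine ⟨δ, hδ, fun a b hab => ?_⟩
  obtain ⟨z, hz⟩ := h a (mem_univ a)
  have ha : JoinedIn (ball z (ε / 2)) z a := hz (mem_ball_self hδ)
  have hb : JoinedIn (ball z (ε / 2)) z b := hz (by rwa [mem_ball, dist_comm])
  refine (ha.symm.trans hb).mono fun w hw => ?_
  have h1 := ha.target_mem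
  rw [mem_ball] at *
  linarith [dist_triangle_right w a z]

end GLlcAux

theorem gLlc [CompactSpace Z] (D : Dyn G Z) (h : GTwo Z) : GLlc Z := by
  obtain ⟨-, hloc, hpc⟩ := h
  have hC := D.C_pos
  have hC1 := D.one_le_C
  have hq := D.q_pos
  have hq1 := D.q_lt
  obtain ⟨c, hc⟩ : ∃ c : ℝ, c = 1 / D.C ^ 2 := ⟨_, rfl⟩
  have hc0 : 0 < c := by rw [hc]; positivity
  have hcC : D.C ^ 2 * c = 1 := by rw [hc]; field_simp
  have hc1 : c ≤ 1 := by nlinarith [one_le_pow₀ (n := 2) hC1]
  obtain ⟨δ, hδ, hJ⟩ := GLlcAux.ulc (Z := Z) (half_pos hc0)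
  obtain ⟨K, hK⟩ : ∃ K : ℝ, K = 2 * D.C / δ := ⟨_, rfl⟩
  have hK0 : 0 < K := by rw [hK]; positivity
  have hKδ : K * δ = 2 * D.C := by rw [hK]; field_simp
  have p1 : 0 < 3 * D.C ^ 3 * K / D.q := by positivity
  have p2 : 0 < 2 * D.C * K / (D.q * c) := by positivity
  refine ⟨1 + 3 * D.C ^ 3 * K / D.q + 2 * D.C * K / (D.q * c), by linarith, fun x y => ?_⟩
  rcases eq_or_ne x y with rfl | hxy
  · exact JoinedIn.refl (by simp)
  have hd : 0 < dist x y := dist_pos.2 hxy
  by_cases hs : K * dist x y ≤ D.q * c / 2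
  · obtain ⟨g, g1, g2, g3⟩ := D.zoom x (mul_pos hK0 hd) (by nlinarith)
    obtain ⟨t, ht⟩ : ∃ t, t = D.q ^ D.len g := ⟨_, rfl⟩
    have ht0 : 0 < t := ht ▸ D.qpow_pos _
    have m1 := D.mob_le g x y
    have m2 := D.inv_ge g (g⁻¹ • x)
    rw [smul_inv_smul] at m2
    rw [← ht] at g1 g2 g3 m1 m2
    have htc : t < c := by nlinarith
    have a1 : dist (g⁻¹ • x) (g⁻¹ • y) < δ := by
      have b1 : t * t ≤ max (dist x (D.pt g)) t * max (dist y (D.pt g)) t :=
        mul_le_mul (le_max_right _ _) (le_max_right _ _) ht0.le (ht0.le.trans (le_max_right _ _))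
      have b2 := (mul_le_mul_of_nonneg_left b1 (dist_nonneg (x := g⁻¹ • x) (y := g⁻¹ • y))).trans m1
      have b3 : dist (g⁻¹ • x) (g⁻¹ • y) * t ≤ D.C * dist x y :=
        le_of_mul_le_mul_right (by linarith) ht0
      by_contra hn
      have b4 := mul_le_mul (not_lt.1 hn) g1 (by positivity) dist_nonneg
      nlinarith [mul_pos hC hd]
    have a2 : c ≤ dist (g⁻¹ • x) (D.pt g⁻¹) := by
      have b1 : max (dist x (D.pt g)) t ≤ D.C * t :=
        max_le (by rwa [dist_comm]) (le_mul_of_one_le_left ht0.le hC1)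
      by_contra hn
      have b2 : max (dist (g⁻¹ • x) (D.pt g⁻¹)) t < c := max_lt (not_le.1 hn) htc
      have b3 : max (dist x (D.pt g)) t * max (dist (g⁻¹ • x) (D.pt g⁻¹)) t < D.C * t * c :=
        lt_of_le_of_lt (mul_le_mul_of_nonneg_right b1 (ht0.le.trans (le_max_right _ _)))
          (mul_lt_mul_of_pos_left b2 (by positivity))
      have b4 := mul_lt_mul_of_pos_left b3 hC
      have b5 : D.C * (D.C * t * c) = D.C ^ 2 * c * t := by ring
      rw [b5, hcC] at b4
      linarith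
    have a3 := (hJ _ _ a1).map (D.cont_smul g)
    simp only [smul_inv_smul] at a3
    refine a3.mono ?_
    rintro _ ⟨w, hw, rfl⟩
    have m3 := D.inv_le g w
    rw [← ht] at m3
    rw [mem_ball] at hw
    have b1 : c / 2 ≤ max (dist w (D.pt g⁻¹)) t :=
      le_max_of_le_left (by linarith [dist_triangle_left (g⁻¹ • x) (D.pt g⁻¹) w])
    have b2 : dist (g • w) (D.pt g) * (c / 2) ≤ D.C * t :=
      (mul_le_mul (le_max_left _ _) b1 (by positivity) (ht0.le.trans (le_max_right _ _))).trans m3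
    have b3 : dist (g • w) (D.pt g) ≤ 2 * D.C ^ 3 * t := by
      have := mul_le_mul_of_nonneg_left b2 (by positivity : 0 ≤ 2 * D.C ^ 2)
      have e : 2 * D.C ^ 2 * (dist (g • w) (D.pt g) * (c / 2)) =
        D.C ^ 2 * c * dist (g • w) (D.pt g) := by ring
      rw [e, hcC] at this
      linarith
    have b4 : D.C * t ≤ D.C ^ 3 * t :=
      mul_le_mul_of_nonneg_right (le_self_pow₀ hC1 (by norm_num)) ht0.le
    have b5 : t ≤ K * dist x y / D.q := by rw [le_div_iff₀ hq]; linarith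
    have b6 := mul_le_mul_of_nonneg_left b5 (by positivity : 0 ≤ 3 * D.C ^ 3)
    have e : 3 * D.C ^ 3 * (K * dist x y / D.q) = 3 * D.C ^ 3 * K / D.q * dist x y := by ring
    rw [mem_closedBall]
    nlinarith [dist_triangle (g • w) (D.pt g) x, mul_pos p2 hd]
  · have a1 : JoinedIn univ x y := joinedIn_univ.2 (PathConnectedSpace.joined x y)
    refine a1.mono fun w _ => ?_
    have b1 : D.C ≤ 2 * D.C * K / (D.q * c) * dist x y := by
      rw [div_mul_eq_mul_div, le_div_iff₀ (by positivity)]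
      nlinarith [mul_lt_mul_of_pos_left (not_le.1 hs) hC]
    rw [mem_closedBall]
    nlinarith [D.diam w x, mul_pos p1 hd]

end Vale.Agent.P198
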