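import Vale.Agent.P198.G.Stm

/-! Points far from a ball are joined outside the ball. -/

open Set Metric Topology Filter

namespace Vale.Agent.P198

variable {G Z : Type*} [Group G] [MetricSpace Z] [MulAction G Z] [CompactSpace Z]

omit [CompactSpace Z] in
theorem gLlc2_near (D : Dyn G Z) (h : G) (x : Z) {ε : ℝ} (hε : 0 < ε)
    (hx : D.C * D.q ^ D.len h ≤ ε * dist x (D.pt h)) :
    max (dist (h⁻¹ • x) (D.pt h⁻¹)) (D.q ^ D.len h) ≤ ε := by
  have hQ := D.qpow_pos (D.len h)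
  have h1 := D.inv_le h (h⁻¹ • x)
  rw [smul_inv_smul] at h1
  have hCQ := mul_pos D.C_pos hQ
  have hd : 0 < dist x (D.pt h) := by
    by_contra hc
    have : ε * dist x (D.pt h) ≤ 0 := mul_nonpos_of_nonneg_of_nonpos hε.le (not_lt.1 hc)
    linarith
  have hm : 0 ≤ max (dist (h⁻¹ • x) (D.pt h⁻¹)) (D.q ^ D.len h) := hQ.le.trans (le_max_right _ _)
  have h2 : dist x (D.pt h) * max (dist (h⁻¹ • x) (D.pt h⁻¹)) (D.q ^ D.len h) ≤
      dist x (D.pt h) * ε := by
    have := mul_le_mul_of_nonneg_right (le_max_left (dist x (D.pt h)) (D.q ^ D.len h)) hm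
    linarith [mul_comm ε (dist x (D.pt h))]
  exact le_of_mul_le_mul_left h2 hd

omit [CompactSpace Z] in
theorem gLlc2_far (D : Dyn G Z) (h : G) (w : Z) {η : ℝ}
    (hη : D.C * η * (D.C + 2) = 1) (hw : max (dist w (D.pt h⁻¹)) (D.q ^ D.len h) ≤ η) :
    (D.C + 2) * D.q ^ D.len h ≤ dist (h • w) (D.pt h) := by
  have hQ := D.qpow_pos (D.len h)
  have hC := D.C_pos
  have h1 := D.inv_ge h w
  set M := max (dist (h • w) (D.pt h)) (D.q ^ D.len h) with hM
  have hM0 : 0 ≤ M := hQ.le.trans (le_max_right _ _)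
  have h2 : D.q ^ D.len h ≤ D.C * (M * η) :=
    h1.trans (mul_le_mul_of_nonneg_left (mul_le_mul_of_nonneg_left hw hM0) hC.le)
  have h3 : (D.C + 2) * D.q ^ D.len h ≤ M := by
    calc (D.C + 2) * D.q ^ D.len h ≤ (D.C + 2) * (D.C * (M * η)) :=
          mul_le_mul_of_nonneg_left h2 (by linarith)
      _ = D.C * η * (D.C + 2) * M := by ring
      _ = M := by rw [hη, one_mul]
  rcases le_max_iff.1 h3 with h4 | h4
  · exact h4
  · nlinarith [mul_pos hC hQ]

theorem gLlc2 (D : Dyn G Z) (h : GLlc Z) : GLlc2 Z := by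
  obtain ⟨L, hL, hllc⟩ := h
  have hC := D.C_pos
  have hq := D.q_pos
  have hden : 0 < D.C * (1 + 2 * L) * (D.C + 2) := by positivity
  obtain ⟨ε, hε, hεe⟩ : ∃ ε : ℝ, 0 < ε ∧ D.C * ((1 + 2 * L) * ε) * (D.C + 2) = 1 :=
    ⟨1 / (D.C * (1 + 2 * L) * (D.C + 2)), by positivity, by field_simp⟩
  have hK : 0 < (D.C / ε + D.C) / D.q := by positivity
  refine ⟨(D.C / ε + D.C) / D.q + D.C + 1, by linarith, fun z x y s hs hx hy => ?_⟩
  have hs1 : s ≤ 1 := by
    by_contra hc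
    have h1 := D.diam x z
    have h2 : ((D.C / ε + D.C) / D.q + D.C + 1) * 1 ≤ ((D.C / ε + D.C) / D.q + D.C + 1) * s :=
      mul_le_mul_of_nonneg_left (not_le.1 hc).le (by linarith)
    linarith
  obtain ⟨g, g1, g2, g3⟩ := D.zoom z hs hs1
  have hQ := D.qpow_pos (D.len g)
  have key : ∀ u : Z, ((D.C / ε + D.C) / D.q + D.C + 1) * s ≤ dist u z →
      max (dist (g⁻¹ • u) (D.pt g⁻¹)) (D.q ^ D.len g) ≤ ε := by
    intro u hu
    refine gLlc2_near D g u hε ?_
    have h1 : (D.C / ε + D.C) / D.q * (D.q * D.q ^ D.len g) ≤ (D.C / ε + D.C) / D.q * s :=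
      mul_le_mul_of_nonneg_left g2.le hK.le
    have h2 : (D.C / ε + D.C) / D.q * (D.q * D.q ^ D.len g)
        = D.C / ε * D.q ^ D.len g + D.C * D.q ^ D.len g := by field_simp
    have h3 := dist_triangle u (D.pt g) z
    have h4 : 0 ≤ (D.C + 1) * s := by positivity
    have h5 : D.C / ε * D.q ^ D.len g ≤ dist u (D.pt g) := by nlinarith
    calc D.C * D.q ^ D.len g = ε * (D.C / ε * D.q ^ D.len g) := by field_simp
      _ ≤ _ := mul_le_mul_of_nonneg_left h5 hε.le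
  have kx := key x hx
  have ky := key y hy
  have dx' := (le_max_left _ _).trans kx
  have dy' := (le_max_left _ _).trans ky
  have hQε := (le_max_right _ _).trans kx
  have hxy : dist (g⁻¹ • x) (g⁻¹ • y) ≤ 2 * ε := by
    have := dist_triangle_right (g⁻¹ • x) (g⁻¹ • y) (D.pt g⁻¹)
    linarith
  have hj := (hllc (g⁻¹ • x) (g⁻¹ • y)).map (D.cont_smul g)
  simp only [smul_inv_smul] at hj
  refine hj.mono ?_
  rintro _ ⟨w, hw, rfl⟩
  rw [mem_closedBall] at hw
  have hLε : 0 ≤ L * ε := by positivity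
  have hw1 : dist w (D.pt g⁻¹) ≤ (1 + 2 * L) * ε := by
    have h1 := dist_triangle w (g⁻¹ • x) (D.pt g⁻¹)
    have h2 := mul_le_mul_of_nonneg_left hxy (by linarith : 0 ≤ L)
    nlinarith
  have hw2 := gLlc2_far D g w hεe (max_le hw1 (by nlinarith))
  simp only [mem_compl_iff, mem_ball, not_lt]
  have h1 := dist_triangle (g • w) z (D.pt g)
  rw [dist_comm z] at h1
  nlinarith

end Vale.Agent.P198
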