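import Vale.Agent.P198.G.Stm

/-! Packing bound for the boundary. -/

open Set Metric Topology Filter

namespace Vale.Agent.P198

variable {G Z : Type*} [Group G] [MetricSpace Z] [MulAction G Z] [CompactSpace Z]

omit [CompactSpace Z] in
theorem gPack_aux (D : Dyn G Z) : GPack Z := by
  classical
  intro K
  have hC := D.C_pos
  have hq := D.q_pos
  obtain ⟨N, hN⟩ := D.loc' (|K| * (4 * D.C / D.q) + D.C)
  refine ⟨max N 1, fun z r T hr h1 h2 => ?_⟩
  by_cases hrC : D.C < r
  · refine le_trans (Finset.card_le_one.2 fun x hx y hy => ?_) (le_max_right _ _)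
    by_contra hne
    linarith [h2 x hx y hy hne, D.diam x y]
  have hs0 : 0 < r / (4 * D.C) := by positivity
  have hs1 : r / (4 * D.C) ≤ 1 := by
    rw [div_le_one (by positivity)]
    linarith [not_lt.1 hrC]
  obtain ⟨m, hm1, hm2⟩ := exists_nat_pow_near_of_lt_one hs0 hs1 hq D.q_lt
  rw [lt_div_iff₀ (by positivity)] at hm1
  rw [div_le_iff₀ (by positivity)] at hm2
  have hqn := D.qpow_pos (m + 1)
  choose g hg1 hg2 using fun x : Z => D.surj x (m + 1)
  have hinj : Set.InjOn g T := by
    intro x hx y hy hxy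
    by_contra hne
    have a1 := h2 x hx y hy hne
    have a2 := dist_triangle_left x y (D.pt (g x))
    have a3 := hg2 x
    have a4 := hg2 y
    rw [← hxy] at a4
    nlinarith [mul_pos hC hqn]
  rw [← Finset.card_image_of_injOn hinj]
  refine le_trans (hN z (m + 1) _ fun h hh => ?_) (le_max_left _ _)
  obtain ⟨x, hx, rfl⟩ := Finset.mem_image.1 hh
  refine ⟨hg1 x, ?_⟩
  have a1 := dist_triangle (D.pt (g x)) x z
  have a2 := h1 x hx
  have a3 : K * r ≤ |K| * r := mul_le_mul_of_nonneg_right (le_abs_self K) hr.le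
  have a4 : |K| * r ≤ |K| * (D.q ^ m * (4 * D.C)) :=
    mul_le_mul_of_nonneg_left hm2 (abs_nonneg K)
  have a5 : (|K| * (4 * D.C / D.q) + D.C) * D.q ^ (m + 1) =
      |K| * (D.q ^ m * (4 * D.C)) + D.C * D.q ^ (m + 1) := by
    rw [pow_succ]
    field_simp
  linarith [hg2 x]

theorem gPack (D : Dyn G Z) : GPack Z := gPack_aux D

end Vale.Agent.P198
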