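import Vale.Agent.P198.Parts

/-! Statements of the pieces of `Geo`. -/

open Set Metric Topology Filter

namespace Vale.Agent.P198

def GTwo (Z : Type*) [MetricSpace Z] : Prop :=
  (∃ d0 : ℝ, 0 < d0 ∧ ∀ b : Z, ∃ x, d0 ≤ dist x b) ∧ LocallyPathConnectedSpace Z ∧ PathConnectedSpace Z

def GLlc (Z : Type*) [MetricSpace Z] : Prop :=
  ∃ Λ : ℝ, 1 ≤ Λ ∧ ∀ x y : Z, JoinedIn (closedBall x (Λ * dist x y)) x y

def GLlc2 (Z : Type*) [MetricSpace Z] : Prop :=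
  ∃ Λ : ℝ, 1 ≤ Λ ∧ ∀ (z x y : Z) (s : ℝ), 0 < s → Λ * s ≤ dist x z → Λ * s ≤ dist y z →
    JoinedIn (ball z s)ᶜ x y

def GPack (Z : Type*) [MetricSpace Z] : Prop :=
  ∀ K : ℝ, ∃ N : ℕ, ∀ (z : Z) (r : ℝ) (T : Finset Z), 0 < r → (∀ x ∈ T, dist x z ≤ K * r) →
    (∀ x ∈ T, ∀ y ∈ T, x ≠ y → r ≤ dist x y) → T.card ≤ N

theorem geo_of {Z : Type*} [MetricSpace Z] (h1 : GTwo Z) (h2 : GLlc Z) (h3 : GLlc2 Z)
    (h4 : GPack Z) : Nonempty (Geo Z) := by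
  obtain ⟨⟨d0, hd, htwo⟩, hloc, -⟩ := h1
  obtain ⟨L1, hL1, hllc⟩ := h2
  obtain ⟨L2, hL2, hllc2⟩ := h3
  refine ⟨⟨d0, max L1 L2, hd, le_max_of_le_left hL1, htwo, fun x y => ?_, fun z x y s hs hx hy => ?_,
    hloc, h4⟩⟩
  · exact (hllc x y).mono (closedBall_subset_closedBall
      (mul_le_mul_of_nonneg_right (le_max_left _ _) dist_nonneg))
  · have : L2 * s ≤ max L1 L2 * s := mul_le_mul_of_nonneg_right (le_max_right _ _) hs.le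
    exact hllc2 z x y s hs (this.trans hx) (this.trans hy)

end Vale.Agent.P198
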