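import Vale.Agent.P198.G.Stm

/-! Two points, local and global path connectedness. -/

open Set Metric Topology Filter

namespace Vale.Agent.P198

variable {G Z : Type*} [Group G] [MetricSpace Z] [MulAction G Z] [CompactSpace Z]

omit [CompactSpace Z] in
theorem gTwo' (D : Dyn G Z) : GTwo Z := by
  obtain ⟨b₀⟩ := D.ne
  obtain ⟨ψ₀, h₀, -⟩ := D.chart b₀
  have h01 : ψ₀ 0 ≠ ψ₀ 1 := fun h => zero_ne_one (h₀.injective h)
  have h02 : ψ₀ 0 ≠ ψ₀ 2 := fun h => two_ne_zero (h₀.injective h).symm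
  have h12 : ψ₀ 1 ≠ ψ₀ 2 := fun h => by simpa using h₀.injective h
  have hd : 0 < dist (ψ₀ 0) (ψ₀ 1) := dist_pos.2 h01
  have third : ∀ x y : Z, ∃ b, x ≠ b ∧ y ≠ b := fun x y => by
    by_contra hc
    push Not at hc
    by_cases a0 : x = ψ₀ 0
    · exact h12 ((hc _ (a0 ▸ h01)).symm.trans (hc _ (a0 ▸ h02)))
    by_cases a1 : x = ψ₀ 1
    · exact h02 ((hc _ a0).symm.trans (hc _ (a1 ▸ h12)))
    · exact h01 ((hc _ a0).symm.trans (hc _ a1))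
  refine ⟨⟨dist (ψ₀ 0) (ψ₀ 1) / 2, by positivity, fun b => ?_⟩, ⟨fun x => ?_⟩,
    ⟨⟨b₀⟩, fun x y => ?_⟩⟩
  · have := dist_triangle_right (ψ₀ 0) (ψ₀ 1) b
    by_cases h : dist (ψ₀ 0) (ψ₀ 1) / 2 ≤ dist (ψ₀ 0) b
    · exact ⟨_, h⟩
    · exact ⟨ψ₀ 1, by linarith⟩
  · obtain ⟨b, hb, -⟩ := third x x
    obtain ⟨ψ, h, hr⟩ := D.chart b
    obtain ⟨w, rfl⟩ : x ∈ range ψ := hr ▸ hb
    rw [← h.map_nhds_eq]
    refine ((path_connected_basis w).map ψ).to_hasBasis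
      (fun s hs => ⟨ψ '' s, ⟨image_mem_map hs.1, hs.2.image h.continuous⟩, subset_rfl⟩)
      fun t ht => ?_
    obtain ⟨s, hs, hst⟩ := (path_connected_basis w).mem_iff.1 (mem_map.1 ht.1)
    exact ⟨s, hs, image_subset_iff.2 hst⟩
  · obtain ⟨b, hx, hy⟩ := third x y
    obtain ⟨ψ, h, hr⟩ := D.chart b
    obtain ⟨u, rfl⟩ : x ∈ range ψ := hr ▸ hx
    obtain ⟨v, rfl⟩ : y ∈ range ψ := hr ▸ hy
    exact ⟨(PathConnectedSpace.somePath u v).map h.continuous⟩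

theorem gTwo (D : Dyn G Z) : GTwo Z := gTwo' D

end Vale.Agent.P198
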